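import Vale.Agent.P154.Hel.CP.Poi2.All
import Vale.Agent.P154.Hel.CP.Poi2.Rows
import Vale.Agent.P154.Hel.CornerAssemble
import Vale.Agent.P154.Hel.SmallFam2

/-!
The Poisson tree on the critical curve `d = 1 / t ^ 2`, for `t` in the corner.
-/

namespace Vale.Agent.P154.Hel.Direct.Poi2

open Vale.Agent.P154.Hel Vale.Agent.P154.Hel.Corner Filter Topology

/-- The planes of the list satisfy both rows. -/
theorem poi_planes : ∀ p ∈ planes, PoiPlane X9 par.D p :=
  fun _ hp => rows hp par.D (by norm_num [par])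

/-- The four characters of the small family in the list of the corner. -/
theorem four_chars : Small.FourChars X9 (⟨6, by decide⟩ : Fin X9.length) ⟨7, by decide⟩ ⟨2, by decide⟩ ⟨8, by decide⟩ :=
  ⟨rfl, rfl, rfl, rfl⟩

/-- Nonreconstruction on the Poisson tree on the critical curve. -/
theorem curve {t : ℝ} (h0 : 3345 / 8192 ≤ t) (h1 : t ≤ 1 / 2) :
    Tendsto (gwA 3 (poissonWeight (1 / t ^ 2)) (-t)) atTop (𝓝 0) := by
  refine curve_of_rows hX9 (p := par) (Za := 1 / 100) (by decide) rows_ok (rows_pl poi_planes)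
    (jc := ⟨8, by decide⟩) (j9 := ⟨3, by decide⟩) rfl rfl four_chars rfl
    (t0 := 3345 / 8192) (by norm_num) (by norm_num [par]) (by norm_num [par]) h0 h1
    (by norm_num) (by norm_num [par]) (by norm_num [par]) (by norm_num [par]) ?_
  intro Z hZ0 hZ1 x hx
  refine Small.small_family_100 h0 h1 hZ0 ?_ hx
  have : ((1 / 100 : ℚ) : ℝ) = 1 / 100 := by norm_num
  rwa [this] at hZ1

end Vale.Agent.P154.Hel.Direct.Poi2
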