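import Vale.Agent.P154.Hel.CP.Poi2.Data

/-!
Walk of the forms of the planes on a part of the unit square.
-/

namespace Vale.Agent.P154.Hel.Direct.Poi2

open TM

set_option maxRecDepth 100000 in
/-- A cell. -/
theorem g_4_14_3 : GoodC (tabsR X9) zF zD 4 14 3 :=
  goodC_of_walk (c := cfgD) cfgD_valid hX9 hLL hSF hSD (f := 4) (by decide +kernel)

set_option maxRecDepth 100000 in
/-- A cell. -/
theorem g_4_15_3 : GoodC (tabsR X9) zF zD 4 15 3 :=
  goodC_of_walk (c := cfgD) cfgD_valid hX9 hLL hSF hSD (f := 5) (by decide +kernel)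

end Vale.Agent.P154.Hel.Direct.Poi2
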