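import Vale.Agent.P154.Hel.CP.Poi2.Data

/-!
Walk of the forms of the planes on a part of the unit square.
-/

namespace Vale.Agent.P154.Hel.Direct.Poi2

open TM

set_option maxRecDepth 100000 in
/-- A cell of the walk near the vertex. -/
theorem z_35_3_0 : GoodZ X9 zD 35 3 0 :=
  goodZ_of_walk (c := cfgD) cfgD_valid hX9 hLL hSD (by decide +kernel) (f := 5) (by decide +kernel)

set_option maxRecDepth 100000 in
/-- A cell of the walk near the vertex. -/
theorem z_27_4_2 : GoodZ X9 zD 27 4 2 :=
  goodZ_of_walk (c := cfgD) cfgD_valid hX9 hLL hSD (by decide +kernel) (f := 4) (by decide +kernel)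

set_option maxRecDepth 100000 in
/-- A cell of the walk near the vertex. -/
theorem z_23_4_3 : GoodZ X9 zD 23 4 3 :=
  goodZ_of_walk (c := cfgD) cfgD_valid hX9 hLL hSD (by decide +kernel) (f := 3) (by decide +kernel)

end Vale.Agent.P154.Hel.Direct.Poi2
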